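import Vale.Agent.P064.PcBound

/-!
# P064: `p_c ≤ C (log n)^2 p_E`, unconditionally
-/

namespace Vale.Agent.Results.P064.A0_LogSquared

open Vale.Agent.P064

/-- For every `n ≥ 2` and every graph `H` on `Fin n` with at least one edge:
`p_c(n,H) ≤ 10752000 (log n)^2 p_E(n,H)`, and the modified expectation threshold satisfies
`pEt n H ≤ 8400 log n * p_E(n,H)`. -/
theorem result (n : ℕ) (hn : 2 ≤ n) (H : SimpleGraph (Fin n)) (hH : H ≠ ⊥) :
    pc n H ≤ 10752000 * (Real.log n) ^ 2 * pE n H ∧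
      pEt n H ≤ 8400 * Real.log n * pE n H :=
  ⟨pc_le hn hH, pEt_le hn hH⟩

end Vale.Agent.Results.P064.A0_LogSquared
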