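import Vale.Agent.P064.Thresh

/-!
# P064: the modified expectation threshold is at most `8400 log n` times `p_E`
-/

namespace Vale.Agent.Results.P064.A1_TildeLog

open Vale.Agent.P064

/-- For every `n ≥ 2` and every graph `H` on `Fin n` with at least one edge,
`pEt n H ≤ 8400 * log n * pE n H`. -/
theorem result (n : ℕ) (hn : 2 ≤ n) (H : SimpleGraph (Fin n)) (hH : H ≠ ⊥) :
    pEt n H ≤ 8400 * Real.log n * pE n H :=
  pEt_le hn hH

end Vale.Agent.Results.P064.A1_TildeLog
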