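import Vale.Agent.Results.P064.A0_LogSquared

namespace Vale.Agent.Results.P064.B_AbsoluteConstant

open Vale.Agent.P064

/-- There is an absolute constant `C` such that `p_c(n,H) ≤ C (log n)^2 p_E(n,H)` for every
`n ≥ 2` and every graph `H` on `Fin n` with at least one edge. -/
theorem result : ∃ C : ℝ, ∀ n : ℕ, 2 ≤ n → ∀ H : SimpleGraph (Fin n), H ≠ ⊥ →
    pc n H ≤ C * (Real.log n) ^ 2 * pE n H :=
  ⟨10752000, fun n hn H hH => (Vale.Agent.Results.P064.A0_LogSquared.result n hn H hH).1⟩

end Vale.Agent.Results.P064.B_AbsoluteConstant
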