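import Vale.Agent.P064.Thresh

namespace Vale.Agent.Results.P064.C_CountingInequality

open Vale.Agent.P064

/-- The counting inequality behind the threshold bounds, for every graph `F`: if at density `q`
every subgraph of `H` has expected count at least `1/2` in `G(n,q)`, then the number of copies of
`F` in `H` is at most the expected number of copies of `F` in `G(n, min {1, 8400 q log n})`. -/
theorem result (n : ℕ) (hn : 2 ≤ n) (H : SimpleGraph (Fin n)) (q : ℝ) (hq : 0 < q)
    (hexp : ∀ F : SimpleGraph (Fin n), F ≤ H → 1 / 2 ≤ expCopies n q F)
    (F : SimpleGraph (Fin n)) :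
    (copies H F : ℝ) ≤ expCopies n (min 1 (8400 * Real.log n * q)) F := by
  rcases le_total (8400 * Real.log n * q) 1 with h1 | h1
  · rw [min_eq_right h1]
    have h := copies_le hn hq hexp F
    rw [expCopies_eq, card_eF]
    rw [copies_eq_orb ⊤ F] at h
    exact h
  · rw [min_eq_left h1, expCopies_eq, one_pow, mul_one, copies_eq_orb]
    exact_mod_cast orb_mono _ (eF_subset_EK H)

end Vale.Agent.Results.P064.C_CountingInequality
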